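import Mathlib

/-!
Global solutions of the reduced planar system inside an invariant box.
-/

namespace Vale.Agent.P252

open scoped ContDiff Topology NNReal
open Set Filter Metric

theorem exists_global {E : Type} [NormedAddCommGroup E] [NormedSpace ℝ E] [CompleteSpace E]
    {F : E → E} {K L : ℝ≥0} (hK : LipschitzWith K F) (hL : ∀ x, ‖F x‖ ≤ L) (x₀ : E) :
    ∃ γ : ℝ → E, γ 0 = x₀ ∧ ∀ t, HasDerivAt γ (F (γ t)) t := by
  have h1 : ∀ N : ℕ, ∃ α : ℝ → E, α 0 = x₀ ∧
      ∀ t ∈ Ioo (-((N : ℝ) + 1)) (N + 1), HasDerivAt α (F (α t)) t := by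
    intro N
    have hN : (0 : ℝ) ∈ Icc (-((N : ℝ) + 1)) (N + 1) :=
      ⟨by have : (0 : ℝ) ≤ N := N.cast_nonneg; linarith, by positivity⟩
    have hpl : IsPicardLindelof (fun _ => F) (⟨0, hN⟩ : Icc (-((N : ℝ) + 1)) (N + 1)) x₀
        (L * (N + 1)) 0 L K :=
      IsPicardLindelof.of_time_independent (fun x _ => hL x) hK.lipschitzOnWith (by simp)
    obtain ⟨α, h0, hα⟩ := hpl.exists_eq_forall_mem_Icc_hasDerivWithinAt₀
    exact ⟨α, h0, fun t ht => (hα t (Ioo_subset_Icc_self ht)).hasDerivAt (Icc_mem_nhds ht.1 ht.2)⟩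
  choose α h0 hα using h1
  have huniq : ∀ M N : ℕ, M ≤ N → EqOn (α M) (α N) (Ioo (-((M : ℝ) + 1)) (M + 1)) := by
    intro M N hMN
    have hMN' : (M : ℝ) ≤ N := by exact_mod_cast hMN
    have hM : (0 : ℝ) ≤ M := M.cast_nonneg
    refine ODE_solution_unique_of_mem_Ioo (v := fun _ => F) (s := fun _ => univ) (K := K)
      (t₀ := 0) (fun _ _ => hK.lipschitzOnWith) ⟨by linarith, by linarith⟩
      (fun t ht => ⟨hα M t ht, trivial⟩)
      (fun t ht => ⟨hα N t ⟨by linarith [ht.1], by linarith [ht.2]⟩, trivial⟩) ?_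
    rw [h0, h0]
  have hmem : ∀ t : ℝ, t ∈ Ioo (-((⌈|t|⌉₊ : ℝ) + 1)) (⌈|t|⌉₊ + 1) := by
    intro t
    have h1 := Nat.le_ceil |t|
    have h2 := le_abs_self t
    have h3 := neg_abs_le t
    exact ⟨by linarith, by linarith⟩
  refine ⟨fun t => α ⌈|t|⌉₊ t, h0 _, fun t => ?_⟩
  have hev : (fun r => α ⌈|r|⌉₊ r) =ᶠ[𝓝 t] α (⌈|t|⌉₊ + 1) := by
    filter_upwards [Metric.ball_mem_nhds t zero_lt_one] with r hr
    refine huniq _ _ ?_ (hmem r)
    rw [Nat.ceil_le]
    have h1 := Nat.le_ceil |t|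
    have h2 : |r - t| < 1 := hr
    have h3 := abs_sub_abs_le_abs_sub r t
    push_cast
    linarith
  have h2 := hα (⌈|t|⌉₊ + 1) t (by
    have := hmem t
    push_cast
    exact ⟨by linarith [this.1], by linarith [this.2]⟩)
  have h3 : α ⌈|t|⌉₊ t = α (⌈|t|⌉₊ + 1) t := hev.eq_of_nhds
  simp only [h3]
  exact h2.congr_of_eventuallyEq hev

lemma barrier_le {x x' : ℝ → ℝ} {c : ℝ} (hx : ∀ t, HasDerivAt x (x' t) t) (h0 : x 0 ≤ c)
    (h : ∀ t, c < x t → x' t ≤ 0) {t : ℝ} (ht : 0 ≤ t) : x t ≤ c := by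
  refine le_of_forall_pos_le_add fun η hη => ?_
  have hη' : 0 < η / (1 + t) := by positivity
  have := image_le_of_deriv_right_lt_deriv_boundary (f := x) (f' := x') (a := 0) (b := t)
    (fun r _ => (hx r).continuousAt.continuousWithinAt) (fun r _ => (hx r).hasDerivWithinAt)
    (B := fun r => c + η / (1 + t) * (1 + r)) (B' := fun _ => η / (1 + t))
    (by linarith [mul_pos hη' (show (0 : ℝ) < 1 + 0 by norm_num)])
    (fun r => by
      simpa using ((((hasDerivAt_id' r).const_add 1).const_mul (η / (1 + t))).const_add c))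
    (fun r hr hB => by
      have h1 : 0 < η / (1 + t) * (1 + r) := mul_pos hη' (by linarith [hr.1])
      have := h r (by rw [hB]; linarith)
      linarith) ⟨ht, le_rfl⟩
  rwa [div_mul_cancel₀ _ (by positivity)] at this

lemma barrier_ge {x x' : ℝ → ℝ} {c : ℝ} (hx : ∀ t, HasDerivAt x (x' t) t) (h0 : c ≤ x 0)
    (h : ∀ t, x t < c → 0 ≤ x' t) {t : ℝ} (ht : 0 ≤ t) : c ≤ x t := by
  have := barrier_le (x := fun t => -x t) (x' := fun t => -x' t) (c := -c)
    (fun t => (hx t).neg) (by simpa using h0) (fun t ht => by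
      have := h t (by linarith); linarith) ht
  linarith

/-- the reduced planar vector field -/
noncomputable def field (m : ℝ) (p : ℝ × ℝ) : ℝ × ℝ :=
  (p.1 * (1 + p.2 - p.1),
    p.2 * (m ^ 2 + (2 * m - 3) * p.1 + 2 * p.1 ^ 2 - (m ^ 2 - 6 * p.1) * p.2) / (m + 2 * p.1))

theorem exists_trapped (m : ℝ) (hm : 9 ≤ m) (x₀ y₀ : ℝ) (hx : 0 < x₀) (hx1 : x₀ ≤ 1)
    (hy : 1 / 2 ≤ y₀) (hy' : y₀ ≤ 7 / 2) :
    ∃ X Y : ℝ → ℝ, X 0 = x₀ ∧ Y 0 = y₀ ∧ ∀ t, 0 ≤ t → 0 < X t ∧ 0 < Y t ∧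
      HasDerivAt X (field m (X t, Y t)).1 t ∧ HasDerivAt Y (field m (X t, Y t)).2 t := by
  let box : Set (ℝ × ℝ) := Icc x₀ (9 / 2) ×ˢ Icc (1 / 2) (7 / 2)
  let cl : ℝ × ℝ → ℝ × ℝ := fun p => (max x₀ (min p.1 (9 / 2)), max (1 / 2) (min p.2 (7 / 2)))
  have hcl : ∀ p, cl p ∈ box := fun p =>
    ⟨⟨le_max_left _ _, max_le (by linarith) (min_le_right _ _)⟩,
      ⟨le_max_left _ _, max_le (by norm_num) (min_le_right _ _)⟩⟩
  have hclL : LipschitzWith 1 cl := by
    have := ((LipschitzWith.prod_fst (α := ℝ) (β := ℝ)).min_const (9 / 2)).const_max x₀ |>.prodMk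
      (((LipschitzWith.prod_snd (α := ℝ) (β := ℝ)).min_const (7 / 2)).const_max (1 / 2))
    rwa [max_self] at this
  have hcomp : IsCompact box := isCompact_Icc.prod isCompact_Icc
  have hsm : ContDiffOn ℝ 1 (field m) box := by
    unfold field
    refine ContDiffOn.prodMk (by fun_prop) (ContDiffOn.div (by fun_prop) (by fun_prop) ?_)
    intro p hp
    have := hp.1.1
    apply ne_of_gt
    linarith
  obtain ⟨K, hK⟩ := hsm.exists_lipschitzOnWith one_ne_zero
    ((convex_Icc _ _).prod (convex_Icc _ _)) hcomp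
  obtain ⟨L, hL⟩ := hcomp.exists_bound_of_continuousOn hsm.continuousOn
  have hFL : LipschitzWith (K * 1) (fun p => field m (cl p)) := by
    rw [← lipschitzOnWith_univ]
    exact hK.comp hclL.lipschitzOnWith (fun p _ => hcl p)
  obtain ⟨γ, h0, hγ⟩ := exists_global (L := L.toNNReal) hFL
    (fun p => (hL _ (hcl p)).trans (Real.le_coe_toNNReal L)) (x₀, y₀)
  have hX : ∀ t, HasDerivAt (fun t => (γ t).1) (field m (cl (γ t))).1 t := fun t => (hγ t).fst
  have hY : ∀ t, HasDerivAt (fun t => (γ t).2) (field m (cl (γ t))).2 t := fun t => (hγ t).snd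
  have b1 : ∀ t, 0 ≤ t → (γ t).1 ≤ 9 / 2 := fun t ht => by
    refine barrier_le hX (by rw [h0]; simp only; linarith) (fun t h => ?_) ht
    have h1 : (cl (γ t)).1 = 9 / 2 := by
      simp only [cl]
      rw [min_eq_right h.le, max_eq_right (by linarith)]
    have h2 := (hcl (γ t)).2.2
    simp only [field, h1]
    linarith
  have b2 : ∀ t, 0 ≤ t → x₀ ≤ (γ t).1 := fun t ht => by
    refine barrier_ge hX (by rw [h0]) (fun t h => ?_) ht
    have h1 : (cl (γ t)).1 = x₀ := by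
      simp only [cl]
      exact max_eq_left ((min_le_left _ _).trans h.le)
    have h2 := (hcl (γ t)).2.1
    simp only [field, h1]
    exact mul_nonneg hx.le (by linarith)
  have b3 : ∀ t, 0 ≤ t → (γ t).2 ≤ 7 / 2 := fun t ht => by
    refine barrier_le hY (by rw [h0]; exact hy') (fun t h => ?_) ht
    have h1 : (cl (γ t)).2 = 7 / 2 := by
      simp only [cl]
      rw [min_eq_right h.le, max_eq_right (by norm_num)]
    have h2 := (hcl (γ t)).1.1
    have h3 := (hcl (γ t)).1.2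
    simp only [field, h1]
    refine div_nonpos_of_nonpos_of_nonneg (mul_nonpos_of_nonneg_of_nonpos (by norm_num) ?_)
      (by linarith)
    nlinarith
  have b4 : ∀ t, 0 ≤ t → 1 / 2 ≤ (γ t).2 := fun t ht => by
    refine barrier_ge hY (by rw [h0]; exact hy) (fun t h => ?_) ht
    have h1 : (cl (γ t)).2 = 1 / 2 := by
      simp only [cl]
      exact max_eq_left ((min_le_left _ _).trans h.le)
    have h2 := (hcl (γ t)).1.1
    simp only [field, h1]
    refine div_nonneg (mul_nonneg (by norm_num) ?_) (by linarith)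
    nlinarith
  refine ⟨fun t => (γ t).1, fun t => (γ t).2, by simp [h0], by simp [h0], fun t ht => ?_⟩
  have hc : cl (γ t) = γ t := by
    simp only [cl]
    rw [min_eq_left (b1 t ht), max_eq_right (b2 t ht), min_eq_left (b3 t ht),
      max_eq_right (b4 t ht)]
  have h1 := hX t
  have h2 := hY t
  rw [hc] at h1 h2
  exact ⟨hx.trans_le (b2 t ht), by linarith [b4 t ht], h1, h2⟩

lemma hasDerivAt_glue {f g : ℝ → ℝ} {d s₀ : ℝ} (hf : HasDerivAt f d s₀) (hg : HasDerivAt g d s₀)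
    (h : f s₀ = g s₀) : HasDerivAt (fun s => if s ≤ s₀ then f s else g s) d s₀ := by
  have h1 : HasDerivWithinAt (fun s => if s ≤ s₀ then f s else g s) d (Iic s₀) s₀ :=
    hf.hasDerivWithinAt.congr (fun s hs => if_pos hs) (if_pos le_rfl)
  have h2 : HasDerivWithinAt (fun s => if s ≤ s₀ then f s else g s) d (Ici s₀) s₀ := by
    refine hg.hasDerivWithinAt.congr (fun s hs => ?_) (by simp [h])
    rcases (mem_Ici.mp hs).lt_or_eq with h1 | h1
    · exact if_neg (not_le.mpr h1)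
    · subst h1; simp [h]
  have := h1.union h2
  rwa [Iic_union_Ici, hasDerivWithinAt_univ] at this

end Vale.Agent.P252
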