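import Mathlib

/-!
Linear algebra of matrices `a·1 + b x xᵀ + c₁ x eᵀ + c₂ e xᵀ + d e eᵀ` with `x ⟂ e`, `|e| = 1`.
-/

namespace Vale.Agent.P252

open Matrix

variable {n : ℕ}

/-- structured matrices -/
def SM (x e : Fin n → ℝ) (a b c₁ c₂ d : ℝ) : Matrix (Fin n) (Fin n) ℝ :=
  a • (1 : Matrix (Fin n) (Fin n) ℝ) + b • vecMulVec x x + c₁ • vecMulVec x e
    + c₂ • vecMulVec e x + d • vecMulVec e e

lemma SM_apply (x e : Fin n → ℝ) (a b c₁ c₂ d : ℝ) (i j : Fin n) :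
    SM x e a b c₁ c₂ d i j = a * (if i = j then 1 else 0) + b * (x i * x j) + c₁ * (x i * e j)
      + c₂ * (e i * x j) + d * (e i * e j) := by
  simp [SM, vecMulVec_apply, one_apply]

lemma SM_mul (x e : Fin n → ℝ) (s : ℝ) (hx : x ⬝ᵥ x = s) (hxe : x ⬝ᵥ e = 0) (he : e ⬝ᵥ e = 1)
    (a b c₁ c₂ d a' b' c₁' c₂' d' : ℝ) :
    SM x e a b c₁ c₂ d * SM x e a' b' c₁' c₂' d' =
      SM x e (a * a') (a * b' + a' * b + s * b * b' + c₁ * c₂')
        (a * c₁' + a' * c₁ + s * b * c₁' + c₁ * d') (a * c₂' + a' * c₂ + s * c₂ * b' + d * c₂')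
        (a * d' + a' * d + s * c₂ * c₁' + d * d') := by
  have hex : e ⬝ᵥ x = 0 := by rw [dotProduct_comm]; exact hxe
  simp only [SM, Matrix.add_mul, Matrix.mul_add, Matrix.smul_mul, Matrix.mul_smul, Matrix.one_mul,
    Matrix.mul_one, vecMulVec_mul_vecMulVec, hx, hxe, hex, he, vecMulVec_smul, smul_smul]
  ext i j
  simp only [Matrix.add_apply, Matrix.smul_apply, smul_eq_mul]
  ring

lemma SM_trace (x e : Fin n → ℝ) (s : ℝ) (hx : x ⬝ᵥ x = s) (hxe : x ⬝ᵥ e = 0) (he : e ⬝ᵥ e = 1)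
    (a b c₁ c₂ d : ℝ) : (SM x e a b c₁ c₂ d).trace = a * n + b * s + d := by
  have hex : e ⬝ᵥ x = 0 := by rw [dotProduct_comm]; exact hxe
  simp [SM, trace_add, trace_smul, trace_vecMulVec, hx, hxe, hex, he]

lemma SM_transpose (x e : Fin n → ℝ) (a b c₁ c₂ d : ℝ) :
    (SM x e a b c₁ c₂ d)ᵀ = SM x e a b c₂ c₁ d := by
  ext i j
  simp only [transpose_apply, SM_apply]
  by_cases h : i = j
  · subst h; simp; ring
  · have h' : ¬ j = i := fun h' => h h'.symm
    simp [h, h']; ring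

lemma SM_one (x e : Fin n → ℝ) : SM x e 1 0 0 0 0 = 1 := by simp [SM]

lemma SM_det {m : ℕ} (x e : Fin (m + 1) → ℝ) (s : ℝ) (hx : x ⬝ᵥ x = s) (hxe : x ⬝ᵥ e = 0)
    (he : e ⬝ᵥ e = 1) (a b c d : ℝ) (ha : a ≠ 0) :
    (SM x e a b c c d).det = a ^ (m + 1) * (((a + b * s) * (a + d) - c ^ 2 * s) / a ^ 2) := by
  have hex : e ⬝ᵥ x = 0 := by rw [dotProduct_comm]; exact hxe
  let P : Matrix (Fin (m + 1)) (Fin 2) ℝ := Matrix.of fun i k => ![x i, e i] k
  let Q : Matrix (Fin 2) (Fin (m + 1)) ℝ :=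
    Matrix.of fun k j => ![(b * x j + c * e j) / a, (c * x j + d * e j) / a] k
  have h1 : SM x e a b c c d = a • (1 + P * Q) := by
    ext i j
    simp only [SM_apply, P, Q, Matrix.smul_apply, Matrix.add_apply, Matrix.mul_apply,
      Fin.sum_univ_two, of_apply, one_apply, smul_eq_mul]
    simp only [Matrix.cons_val_zero, Matrix.cons_val_one]
    field_simp
    ring
  have h2 : Q * P = !![b * s / a, c / a; c * s / a, d / a] := by
    simp only [dotProduct] at hx hxe he hex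
    ext k l
    fin_cases k <;> fin_cases l <;>
      simp only [P, Q, Matrix.mul_apply, of_apply] <;> simp <;>
      simp only [div_mul_eq_mul_div, add_mul, mul_assoc, ← Finset.sum_div, Finset.sum_add_distrib,
        ← Finset.mul_sum, hx, hxe, he, hex] <;> ring
  rw [h1, det_smul, det_one_add_mul_comm, h2, det_fin_two]
  congr 1
  · simp
  · simp
    field_simp

lemma SM_inv (x e : Fin n → ℝ) (s : ℝ) (hx : x ⬝ᵥ x = s) (hxe : x ⬝ᵥ e = 0)
    (he : e ⬝ᵥ e = 1) (a b c d Δ : ℝ) (ha : a ≠ 0) (hΔ : Δ ≠ 0)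
    (h : Δ = (a + b * s) * (a + d) - c ^ 2 * s) :
    (SM x e a b c c d)⁻¹ = SM x e (1 / a) ((c ^ 2 - b * (a + d)) / (a * Δ)) (-c / Δ) (-c / Δ)
      ((a + b * s) / Δ - 1 / a) := by
  apply Matrix.inv_eq_right_inv
  rw [SM_mul x e s hx hxe he, ← SM_one x e]
  congr 1
  · field_simp
  · field_simp; rw [h]; ring
  · field_simp; ring
  · field_simp; rw [h]; ring
  · field_simp; rw [h]; ring

lemma SM_contract (x e : Fin n → ℝ) (s : ℝ) (hx : x ⬝ᵥ x = s) (hxe : x ⬝ᵥ e = 0)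
    (he : e ⬝ᵥ e = 1) (a b c d Δ A B C D k : ℝ) (ha : a ≠ 0) (hΔ : Δ ≠ 0)
    (h : Δ = (a + b * s) * (a + d) - c ^ 2 * s) :
    ∑ i, ∑ j, (k • (SM x e a b c c d)⁻¹) i j * SM x e A B C C D i j =
      k * (((n : ℝ) - 2) * A / a +
        ((a + d) * (A + B * s) - 2 * c * C * s + (a + b * s) * (A + D)) / Δ) := by
  have h1 : ∀ M N : Matrix (Fin n) (Fin n) ℝ,
      ∑ i, ∑ j, (k • M) i j * N i j = k * (M * Nᵀ).trace := by
    intro M N
    simp [trace, Matrix.mul_apply, Finset.mul_sum, mul_assoc]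
  rw [h1, SM_transpose, SM_inv x e s hx hxe he a b c d Δ ha hΔ h, SM_mul x e s hx hxe he,
    SM_trace x e s hx hxe he]
  congr 1
  field_simp
  rw [h]; ring

lemma SM_posDef (x e : Fin n → ℝ) (s : ℝ) (hx : x ⬝ᵥ x = s) (hxe : x ⬝ᵥ e = 0)
    (he : e ⬝ᵥ e = 1) (a b c d : ℝ) (ha : 0 < a) (had : 0 < a + d)
    (hΔ : 0 < (a + b * s) * (a + d) - c ^ 2 * s) : (SM x e a b c c d).PosDef := by
  have hex : e ⬝ᵥ x = 0 := by rw [dotProduct_comm]; exact hxe
  rw [Matrix.posDef_iff_dotProduct_mulVec]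
  refine ⟨?_, fun z hz => ?_⟩
  · rw [IsHermitian, conjTranspose_eq_transpose_of_trivial, SM_transpose]
  · have hform : star z ⬝ᵥ (SM x e a b c c d *ᵥ z) =
        a * (z ⬝ᵥ z) + b * (x ⬝ᵥ z) ^ 2 + 2 * c * (x ⬝ᵥ z) * (e ⬝ᵥ z) + d * (e ⬝ᵥ z) ^ 2 := by
      simp only [SM, star_trivial, add_mulVec, smul_mulVec, one_mulVec, vecMulVec_mulVec,
        dotProduct_add, dotProduct_smul, smul_eq_mul, dotProduct_comm z x, dotProduct_comm z e,
        op_smul_eq_smul]
      ring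
    rw [hform]
    set p := x ⬝ᵥ z with hp
    set q := e ⬝ᵥ z with hq
    set z' : Fin n → ℝ := z - q • e with hz'
    have hN : z' ⬝ᵥ z' = z ⬝ᵥ z - q ^ 2 := by
      simp only [hz', sub_dotProduct, dotProduct_sub, smul_dotProduct, dotProduct_smul, he,
        smul_eq_mul, dotProduct_comm z e, ← hq]
      ring
    have hxz : x ⬝ᵥ z' = p := by
      simp only [hz', dotProduct_sub, dotProduct_smul, hxe, smul_eq_mul, ← hp]; ring
    have hCS : p ^ 2 ≤ s * (z' ⬝ᵥ z') := by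
      have := Finset.sum_mul_sq_le_sq_mul_sq Finset.univ x z'
      rw [← hxz, ← hx]
      simpa only [dotProduct, sq] using this
    have hN0 : 0 ≤ z' ⬝ᵥ z' := Finset.sum_nonneg fun i _ => mul_self_nonneg _
    have hzz : 0 < z ⬝ᵥ z := by
      rcases (Finset.sum_nonneg fun i _ => mul_self_nonneg (z i) :
        0 ≤ z ⬝ᵥ z).lt_or_eq with h | h
      · exact h
      · exact absurd (dotProduct_self_eq_zero.mp h.symm) hz
    set N := z' ⬝ᵥ z'
    have hzN : z ⬝ᵥ z = N + q ^ 2 := by linarith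
    rw [hzN] at hzz ⊢
    have key : 0 < (a + d) * (a * (N + q ^ 2) + b * p ^ 2 + 2 * c * p * q + d * q ^ 2) := by
      have e1 : (a + d) * (a * (N + q ^ 2) + b * p ^ 2 + 2 * c * p * q + d * q ^ 2) =
          (a + d) * a * N + (b * (a + d) - c ^ 2) * p ^ 2 + (c * p + (a + d) * q) ^ 2 := by ring
      rw [e1]
      rcases hN0.lt_or_eq with hN1 | hN1
      · have h3 := sq_nonneg (c * p + (a + d) * q)
        rcases le_total 0 (b * (a + d) - c ^ 2) with hk | hk
        · have := mul_nonneg hk (sq_nonneg p)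
          have := mul_pos (mul_pos had ha) hN1
          linarith
        · have h4 := mul_le_mul_of_nonpos_left hCS hk
          have h5 := mul_pos hΔ hN1
          nlinarith
      · have hp0 : p = 0 := by
          rw [← hN1] at hCS
          have : p ^ 2 ≤ 0 := by simpa using hCS
          exact pow_eq_zero_iff (two_ne_zero) |>.mp (le_antisymm this (sq_nonneg p))
        have hq0 : 0 < q ^ 2 := by linarith
        rw [← hN1, hp0]
        have : 0 < ((a + d) * q) ^ 2 := by rw [mul_pow]; positivity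
        simpa using this
    exact (mul_pos_iff_of_pos_left had).mp key

end Vale.Agent.P252
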