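import Vale.Agent.P252.Defs
import Vale.Agent.P252.Alg

/-!
Calculus for functions of `s = |x|²` and `t`, where a point of `ℝ^(m+1)` is `(t, x)`.
-/

namespace Vale.Agent.P252

open Matrix

variable {m : ℕ}

/-- the distinguished unit vector -/
def e0 (m : ℕ) : Fin (m + 1) → ℝ := Pi.single 0 1

/-- the component orthogonal to the distinguished vector -/
def xh (y : EuclideanSpace ℝ (Fin (m + 1))) : Fin (m + 1) → ℝ := fun i => y i - y 0 * e0 m i

/-- squared norm of the orthogonal component -/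
def sq' (y : EuclideanSpace ℝ (Fin (m + 1))) : ℝ := xh y ⬝ᵥ xh y

lemma e0_e0 : e0 m ⬝ᵥ e0 m = 1 := by simp [e0]

lemma xh_zero (y : EuclideanSpace ℝ (Fin (m + 1))) : xh y 0 = 0 := by simp [xh, e0]

lemma xh_e0 (y : EuclideanSpace ℝ (Fin (m + 1))) : xh y ⬝ᵥ e0 m = 0 := by
  simp [e0, xh_zero]

lemma sq'_nonneg (y : EuclideanSpace ℝ (Fin (m + 1))) : 0 ≤ sq' y := by
  unfold sq' dotProduct
  exact Finset.sum_nonneg fun i _ => mul_self_nonneg (xh y i)

/-- the linear form `z ↦ ⟨x, z⟩` -/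
noncomputable def Xc (y : EuclideanSpace ℝ (Fin (m + 1))) :
    EuclideanSpace ℝ (Fin (m + 1)) →L[ℝ] ℝ :=
  ∑ i, xh y i • EuclideanSpace.proj i

/-- the linear form `z ↦ z 0` -/
noncomputable def Ec (m : ℕ) : EuclideanSpace ℝ (Fin (m + 1)) →L[ℝ] ℝ := EuclideanSpace.proj 0

lemma Xc_single (y : EuclideanSpace ℝ (Fin (m + 1))) (j : Fin (m + 1)) :
    Xc y (EuclideanSpace.single j 1) = xh y j := by
  simp [Xc, Pi.single_apply]

lemma Ec_single (j : Fin (m + 1)) : Ec m (EuclideanSpace.single j 1) = e0 m j := by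
  simp [Ec, e0, Pi.single_apply, eq_comm]

/-- `f` has gradient `α x + β e` at `y`. -/
def Dv (f : EuclideanSpace ℝ (Fin (m + 1)) → ℝ) (α β : ℝ)
    (y : EuclideanSpace ℝ (Fin (m + 1))) : Prop :=
  HasFDerivAt f (α • Xc y + β • Ec m) y

namespace Dv

variable {f g : EuclideanSpace ℝ (Fin (m + 1)) → ℝ} {α β α' β' : ℝ}
  {y : EuclideanSpace ℝ (Fin (m + 1))}

lemma congr (h : Dv f α β y) (h1 : α = α') (h2 : β = β') : Dv f α' β' y := h1 ▸ h2 ▸ h

lemma const (c : ℝ) : Dv (fun _ => c) 0 0 y := by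
  unfold Dv; simpa using hasFDerivAt_const c y

lemma add (hf : Dv f α β y) (hg : Dv g α' β' y) :
    Dv (fun z => f z + g z) (α + α') (β + β') y := by
  unfold Dv at *
  exact (hf.add hg).congr_fderiv (by module)

lemma sub (hf : Dv f α β y) (hg : Dv g α' β' y) :
    Dv (fun z => f z - g z) (α - α') (β - β') y := by
  unfold Dv at *
  exact (hf.sub hg).congr_fderiv (by module)

lemma mul (hf : Dv f α β y) (hg : Dv g α' β' y) :
    Dv (fun z => f z * g z) (f y * α' + g y * α) (f y * β' + g y * β) y := by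
  unfold Dv at *
  exact (hf.mul hg).congr_fderiv (by module)

lemma const_mul (c : ℝ) (hf : Dv f α β y) : Dv (fun z => c * f z) (c * α) (c * β) y := by
  unfold Dv at *
  exact (hf.const_mul c).congr_fderiv (by module)

lemma comp {φ : ℝ → ℝ} {φ' : ℝ} (hφ : HasDerivAt φ φ' (f y)) (hf : Dv f α β y) :
    Dv (fun z => φ (f z)) (φ' * α) (φ' * β) y := by
  unfold Dv at *
  exact (hφ.comp_hasFDerivAt y hf).congr_fderiv (by module)

lemma inv (hf : Dv f α β y) (h : f y ≠ 0) :
    Dv (fun z => (f z)⁻¹) (-α / f y ^ 2) (-β / f y ^ 2) y :=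
  (comp (hasDerivAt_inv h) hf).congr (by field_simp) (by field_simp)

lemma div (hf : Dv f α β y) (hg : Dv g α' β' y) (h : g y ≠ 0) :
    Dv (fun z => f z / g z) ((α * g y - f y * α') / g y ^ 2) ((β * g y - f y * β') / g y ^ 2) y := by
  simp only [div_eq_mul_inv (f _)]
  exact (hf.mul (hg.inv h)).congr (by field_simp; ring) (by field_simp; ring)

lemma log (hf : Dv f α β y) (h : f y ≠ 0) :
    Dv (fun z => Real.log (f z)) (α / f y) (β / f y) y :=
  (comp (Real.hasDerivAt_log h) hf).congr (by field_simp) (by field_simp)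

lemma exp (hf : Dv f α β y) :
    Dv (fun z => Real.exp (f z)) (Real.exp (f y) * α) (Real.exp (f y) * β) y :=
  comp (Real.hasDerivAt_exp _) hf

lemma sqrt (hf : Dv f α β y) (h : f y ≠ 0) :
    Dv (fun z => √(f z)) (α / (2 * √(f y))) (β / (2 * √(f y))) y :=
  (comp (Real.hasDerivAt_sqrt h) hf).congr (by ring) (by ring)

end Dv

lemma hasFDerivAt_xh (y : EuclideanSpace ℝ (Fin (m + 1))) (j : Fin (m + 1)) :
    HasFDerivAt (fun z : EuclideanSpace ℝ (Fin (m + 1)) => xh z j)
      (EuclideanSpace.proj j - e0 m j • Ec m) y := by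
  have h1 := (EuclideanSpace.proj j : EuclideanSpace ℝ (Fin (m + 1)) →L[ℝ] ℝ).hasFDerivAt (x := y)
  have h2 := ((Ec m).hasFDerivAt (x := y)).mul_const (e0 m j)
  exact h1.sub h2

lemma Dv_t (y : EuclideanSpace ℝ (Fin (m + 1))) : Dv (fun z => z 0) 0 1 y := by
  unfold Dv
  exact ((Ec m).hasFDerivAt (x := y)).congr_fderiv (by simp)

lemma Dv_s (y : EuclideanSpace ℝ (Fin (m + 1))) : Dv sq' 2 0 y := by
  unfold Dv
  have h := HasFDerivAt.fun_sum (u := Finset.univ)
    (fun j _ => (hasFDerivAt_xh y j).mul (hasFDerivAt_xh y j))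
  refine HasFDerivAt.congr_fderiv h ?_
  have h0 := xh_e0 y
  simp only [dotProduct] at h0
  ext z
  simp only [Xc, zero_smul, add_zero, _root_.smul_apply,
    _root_.sum_apply, _root_.add_apply, _root_.sub_apply,
    smul_eq_mul, mul_sub, Finset.sum_add_distrib, Finset.sum_sub_distrib, ← mul_assoc,
    ← Finset.sum_mul, h0]
  ring

lemma contDiff_sq' : ContDiff ℝ ⊤ (sq' (m := m)) := by
  unfold sq' xh dotProduct
  fun_prop

lemma hess_eq {f α β : EuclideanSpace ℝ (Fin (m + 1)) → ℝ} (hf : ∀ y, Dv f (α y) (β y) y)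
    {x : EuclideanSpace ℝ (Fin (m + 1))} {b c d : ℝ} (hα : Dv α b c x) (hβ : Dv β c d x) :
    hess f x = SM (xh x) (e0 m) (α x) b c c (d - α x) := by
  ext i j
  have h1 : (fun y => fderiv ℝ f y (EuclideanSpace.single j 1)) =
      fun y => α y * xh y j + β y * e0 m j := by
    funext y
    rw [(hf y).fderiv]
    simp [Xc_single, Ec_single]
  have h2 := (HasFDerivAt.fun_mul hα (hasFDerivAt_xh x j)).fun_add
    (HasFDerivAt.mul_const hβ (e0 m j))
  simp only [hess, of_apply, h1]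
  rw [HasFDerivAt.fderiv h2, SM_apply]
  simp only [_root_.add_apply, _root_.smul_apply,
    _root_.sub_apply, Xc_single, Ec_single, smul_eq_mul]
  have : (EuclideanSpace.proj j : EuclideanSpace ℝ (Fin (m + 1)) →L[ℝ] ℝ)
      (EuclideanSpace.single i 1) = if i = j then 1 else 0 := by
    simp [Pi.single_apply, eq_comm]
  rw [this]
  ring

end Vale.Agent.P252
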