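import Mathlib

/-!
Definitions for the affine maximal equation on `ℝⁿ`.
-/

namespace Vale.Agent.P252

/-- The Hessian matrix `D²f(x)`, with entries `∂_i ∂_j f (x)`. -/
noncomputable def hess {n : ℕ} (f : EuclideanSpace ℝ (Fin n) → ℝ)
    (x : EuclideanSpace ℝ (Fin n)) : Matrix (Fin n) (Fin n) ℝ :=
  Matrix.of fun i j =>
    fderiv ℝ (fun y => fderiv ℝ f y (EuclideanSpace.single j 1)) x (EuclideanSpace.single i 1)

/-- The matrix `U = det(D²u) (D²u)⁻¹`. -/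
noncomputable def cofU {n : ℕ} (u : EuclideanSpace ℝ (Fin n) → ℝ)
    (x : EuclideanSpace ℝ (Fin n)) : Matrix (Fin n) (Fin n) ℝ :=
  (hess u x).det • (hess u x)⁻¹

/-- The function `w = (det D²u)^(-(n+1)/(n+2))`. -/
noncomputable def wfun {n : ℕ} (u : EuclideanSpace ℝ (Fin n) → ℝ)
    (x : EuclideanSpace ℝ (Fin n)) : ℝ :=
  (hess u x).det ^ (-(((n : ℝ) + 1) / ((n : ℝ) + 2)))

end Vale.Agent.P252
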