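import Vale.Agent.P252.Singular

/-!
The regular solution of the reduced system near the singular point `s = 0`.
-/

namespace Vale.Agent.P252

open scoped ContDiff Topology unitInterval
open Set Filter

/-- the initial slope -/
noncomputable def c0 (m : ℝ) : ℝ := (2 * m + 3) / (m * (m + 2))

/-- first right-hand side -/
noncomputable def poly0 {R : Type} [CommRing R] [Algebra ℝ R] (m : ℝ) (a β : R) : R :=
  (1 / 2 : ℝ) • (a * (β + c0 m • a - a))

/-- second right-hand side -/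
noncomputable def poly1 {R : Type} [CommRing R] [Algebra ℝ R] (m : ℝ) (s a β g : R) : R :=
  (1 / 2 : ℝ) • (g * ((2 : ℝ) • (a * a) + (6 + 2 * m) • (a * (β + c0 m • a))
    + (β + c0 m • a) * ((2 * m + 3) • a + (2 : ℝ) • (s * (a * a)) - (m ^ 2) • (β + c0 m • a)
      + (6 : ℝ) • (s * a * (β + c0 m • a))) - (2 * (2 * m + 3) / m) • (a * a))
    - c0 m • (a * (β + c0 m • a - a)))

/-- third right-hand side -/
noncomputable def poly2 {R : Type} [CommRing R] [Algebra ℝ R] (m : ℝ) (a g : R) : R :=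
  (-(2 / m)) • (a * g)

lemma hasDerivAt_avg_one {φ : ℝ → ℝ} {ε : ℝ} (hφ : ContinuousOn φ (Ioo (-ε) ε)) {f : ℝ → ℝ}
    {c : ℝ} (hf : ∀ s ∈ Ioo (-ε) ε, f s = c + s * ∫ v in (0 : ℝ)..1, φ (s * v))
    {s : ℝ} (hs : s ∈ Ioo (-ε) ε) : HasDerivAt f (φ s) s := by
  have h0 : (0 : ℝ) ∈ Ioo (-ε) ε := ⟨by linarith [hs.1, hs.2], by linarith [hs.1, hs.2]⟩
  have h1 : HasDerivAt (fun s => c + ∫ v in (0 : ℝ)..s, φ v) (φ s) s := by
    refine HasDerivAt.const_add c (intervalIntegral.integral_hasDerivAt_right ?_ ?_ ?_)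
    · exact (hφ.mono (ordConnected_Ioo.uIcc_subset h0 hs)).intervalIntegrable
    · exact hφ.stronglyMeasurableAtFilter isOpen_Ioo s hs
    · exact hφ.continuousAt (isOpen_Ioo.mem_nhds hs)
  refine h1.congr_of_eventuallyEq ?_
  filter_upwards [isOpen_Ioo.mem_nhds hs] with r hr
  rw [hf r hr, intervalIntegral.mul_integral_comp_mul_left]
  simp

lemma hasDerivAt_avg_pow {φ : ℝ → ℝ} {ε μ : ℝ} (hμ : 0 ≤ μ) (hφ : ContinuousOn φ (Ioo (-ε) ε))
    {f : ℝ → ℝ} (hf : ∀ s ∈ Ioo (-ε) ε, f s = s * ∫ v in (0 : ℝ)..1, v ^ μ * φ (s * v))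
    {s : ℝ} (hs : s ∈ Ioo 0 ε) : HasDerivAt f (φ s - μ * f s / s) s := by
  have hsub : Ioo 0 ε ⊆ Ioo (-ε) ε := fun r hr => ⟨by linarith [hr.1, hr.2], hr.2⟩
  have h0 : (0 : ℝ) ∈ Ioo (-ε) ε := ⟨by linarith [hs.1, hs.2], by linarith [hs.1, hs.2]⟩
  have hc : ContinuousOn (fun v : ℝ => v ^ μ * φ v) (Ioo (-ε) ε) :=
    (Real.continuous_rpow_const hμ).continuousOn.mul hφ
  have key : ∀ r ∈ Ioo 0 ε, f r = r ^ (-μ) * ∫ v in (0 : ℝ)..r, v ^ μ * φ v := by
    intro r hr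
    have h2 := intervalIntegral.mul_integral_comp_mul_left (f := fun v : ℝ => v ^ μ * φ v)
      (a := 0) (b := 1) r
    simp only [mul_zero, mul_one] at h2
    have h3 : ∫ v in (0 : ℝ)..1, (r * v) ^ μ * φ (r * v) =
        r ^ μ * ∫ v in (0 : ℝ)..1, v ^ μ * φ (r * v) := by
      rw [← intervalIntegral.integral_const_mul]
      apply intervalIntegral.integral_congr
      intro v hv
      rw [uIcc_of_le zero_le_one] at hv
      simp only [Real.mul_rpow hr.1.le hv.1]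
      ring
    rw [hf r (hsub hr), ← h2, h3, Real.rpow_neg hr.1.le]
    have := Real.rpow_pos_of_pos hr.1 μ
    field_simp
  have h1 : HasDerivAt (fun s => ∫ v in (0 : ℝ)..s, v ^ μ * φ v) (s ^ μ * φ s) s := by
    refine intervalIntegral.integral_hasDerivAt_right ?_ ?_ ?_
    · exact (hc.mono (ordConnected_Ioo.uIcc_subset h0 (hsub hs))).intervalIntegrable
    · exact hc.stronglyMeasurableAtFilter isOpen_Ioo s (hsub hs)
    · exact hc.continuousAt (isOpen_Ioo.mem_nhds (hsub hs))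
  have h2 := (Real.hasDerivAt_rpow_const (p := -μ) (Or.inl hs.1.ne')).mul h1
  have h3 : HasDerivAt (fun r => r ^ (-μ) * ∫ v in (0 : ℝ)..r, v ^ μ * φ v)
      (φ s - μ * f s / s) s := by
    refine HasDerivAt.congr_deriv h2 ?_
    rw [key s hs, Real.rpow_sub_one hs.1.ne', Real.rpow_neg hs.1.le]
    have := Real.rpow_pos_of_pos hs.1 μ
    have := hs.1
    field_simp
    ring
  refine h3.congr_of_eventuallyEq ?_
  filter_upwards [isOpen_Ioo.mem_nhds hs] with r hr using key r hr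

theorem exists_local (m : ℝ) (hm : 1 ≤ m) : ∃ ε > 0, ∃ a b : ℝ → ℝ,
    (∀ s ∈ Ioo (-ε) ε, AnalyticAt ℝ a s ∧ AnalyticAt ℝ b s) ∧ a 0 = 1 ∧
    (∀ s ∈ Ioo (-ε) ε, HasDerivAt a (a s * (b s - a s) / 2) s) ∧
    (∀ s ∈ Ico 0 ε, HasDerivAt (fun s => 1 + s * b s) ((1 + s * b s) * ((2 * m + 3) * a s
      + 2 * s * a s ^ 2 - m ^ 2 * b s + 6 * s * a s * b s) / (2 * (m + 2 * s * a s))) s) := by
  have hμ : 0 ≤ (m + 2) / 2 := by positivity
  let k0 : C(ℝ, ℝ) := ContinuousMap.const ℝ 1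
  let k1 : C(ℝ, ℝ) := ⟨fun v => v ^ ((m + 2) / 2), Real.continuous_rpow_const hμ⟩
  have hk0 : ∀ v ∈ Icc (0 : ℝ) 1, |k0 v| ≤ 1 := fun v _ => by simp [k0]
  have hk1 : ∀ v ∈ Icc (0 : ℝ) 1, |k1 v| ≤ 1 := fun v hv => by
    simp only [k1, ContinuousMap.coe_mk]
    rw [abs_of_nonneg (Real.rpow_nonneg hv.1 _)]
    exact Real.rpow_le_one hv.1 hv.2 hμ
  obtain ⟨ε, hε, y, hy, hint⟩ := exists_scaling_solution (ι := Fin 3) ![1, 0, 1 / m]
    ![avgL k0 hk0, avgL k1 hk1, ContinuousLinearMap.id ℝ _]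
    (by
      intro i c f
      fin_cases i
      · exact avgL_scale k0 hk0 c f
      · exact avgL_scale k1 hk1 c f
      · rfl)
    (fun v => ![poly0 m (v.2 0) (v.2 1), poly1 m (v.1 • idI) (v.2 0) (v.2 1) (v.2 2),
      poly2 m (v.2 0) (v.2 2)])
    (by
      rw [contDiff_pi]
      intro i
      fin_cases i
      · change ContDiff ℝ ω fun v : ℝ × (Fin 3 → C(I, ℝ)) => poly0 m (v.2 0) (v.2 1)
        unfold poly0
        fun_prop
      · change ContDiff ℝ ω fun v : ℝ × (Fin 3 → C(I, ℝ)) =>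
          poly1 m (v.1 • idI) (v.2 0) (v.2 1) (v.2 2)
        unfold poly1
        fun_prop
      · change ContDiff ℝ ω fun v : ℝ × (Fin 3 → C(I, ℝ)) => poly2 m (v.2 0) (v.2 2)
        unfold poly2
        fun_prop)
    (fun s z => ![poly0 m (z 0) (z 1), poly1 m s (z 0) (z 1) (z 2), poly2 m (z 0) (z 2)])
    (by
      intro l Y i τ
      fin_cases i
      · simp [poly0]
      · change poly1 m (l • idI) (Y 0) (Y 1) (Y 2) τ = poly1 m (l * τ) (Y 0 τ) (Y 1 τ) (Y 2 τ)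
        simp only [poly1, idI, ContinuousMap.smul_apply, ContinuousMap.mul_apply,
          ContinuousMap.add_apply, ContinuousMap.sub_apply, ContinuousMap.coe_mk, smul_eq_mul]
      · simp [poly2])
  have hy0 : ∀ s ∈ Ioo (-ε) ε, AnalyticAt ℝ (fun s => y s 0) s :=
    fun s hs => analyticAt_pi_iff.mp (hy s hs) 0
  have hy1 : ∀ s ∈ Ioo (-ε) ε, AnalyticAt ℝ (fun s => y s 1) s :=
    fun s hs => analyticAt_pi_iff.mp (hy s hs) 1
  have hy2 : ∀ s ∈ Ioo (-ε) ε, AnalyticAt ℝ (fun s => y s 2) s :=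
    fun s hs => analyticAt_pi_iff.mp (hy s hs) 2
  have hc0 : ContinuousOn (fun s => y s 0) (Ioo (-ε) ε) :=
    fun s hs => (hy0 s hs).continuousAt.continuousWithinAt
  have hc1 : ContinuousOn (fun s => y s 1) (Ioo (-ε) ε) :=
    fun s hs => (hy1 s hs).continuousAt.continuousWithinAt
  have hc2 : ContinuousOn (fun s => y s 2) (Ioo (-ε) ε) :=
    fun s hs => (hy2 s hs).continuousAt.continuousWithinAt
  have e0 : ∀ s ∈ Ioo (-ε) ε, y s 0 = 1 + s * ∫ v in (0 : ℝ)..1,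
      (fun r => poly0 m (y r 0) (y r 1)) (s * v) := by
    intro s hs
    obtain ⟨f, hf, h⟩ := hint s hs 0
    have := avgL_one k0 hk0 f (fun r => poly0 m (y r 0) (y r 1)) s hf
    simp only [k0, ContinuousMap.const_apply, one_mul] at this
    rw [← this]
    exact h
  have e1 : ∀ s ∈ Ioo (-ε) ε, y s 1 = s * ∫ v in (0 : ℝ)..1, v ^ ((m + 2) / 2) *
      (fun r => poly1 m r (y r 0) (y r 1) (y r 2)) (s * v) := by
    intro s hs
    obtain ⟨f, hf, h⟩ := hint s hs 1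
    have := avgL_one k1 hk1 f (fun r => poly1 m r (y r 0) (y r 1) (y r 2)) s hf
    simp only [k1, ContinuousMap.coe_mk] at this
    rw [← this, h]
    exact zero_add _
  have e2 : ∀ s ∈ Ioo (-ε) ε, y s 2 * (m + 2 * s * y s 0) = 1 := by
    intro s hs
    obtain ⟨f, hf, h⟩ := hint s hs 2
    have h1 := hf 1
    simp [poly2] at h1 h
    rw [h1] at h
    field_simp at h
    linarith
  have h0 : (0 : ℝ) ∈ Ioo (-ε) ε := ⟨by linarith, hε⟩
  have d0 : ∀ s ∈ Ioo (-ε) ε, HasDerivAt (fun s => y s 0) (poly0 m (y s 0) (y s 1)) s := by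
    intro s hs
    refine hasDerivAt_avg_one (φ := fun r => poly0 m (y r 0) (y r 1)) ?_ e0 hs
    unfold poly0
    fun_prop
  have d1 : ∀ s ∈ Ioo 0 ε, HasDerivAt (fun s => y s 1)
      (poly1 m s (y s 0) (y s 1) (y s 2) - (m + 2) / 2 * y s 1 / s) s := by
    intro s hs
    refine hasDerivAt_avg_pow (φ := fun r => poly1 m r (y r 0) (y r 1) (y r 2)) hμ ?_ e1 hs
    unfold poly1
    fun_prop
  have a0 : y 0 0 = 1 := by simpa using e0 0 h0
  have b0 : y 0 1 = 0 := by simpa using e1 0 h0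
  refine ⟨ε, hε, fun s => y s 0, fun s => y s 1 + c0 m * y s 0, fun s hs => ⟨hy0 s hs, ?_⟩, a0,
    fun s hs => ?_, fun s hs => ?_⟩
  · exact (hy1 s hs).add (analyticAt_const.mul (hy0 s hs))
  · refine (d0 s hs).congr_deriv ?_
    simp only [poly0, smul_eq_mul]
    ring
  · rcases hs.1.lt_or_eq with hs0 | hs0
    · have hs' : s ∈ Ioo (-ε) ε := ⟨by linarith, hs.2⟩
      have h := (((hasDerivAt_id' s).mul ((d1 s ⟨hs0, hs.2⟩).add
        ((d0 s hs').const_mul (c0 m)))).const_add 1)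
      refine HasDerivAt.congr_deriv h ?_
      have h2 := e2 s hs'
      have hD : m + 2 * s * y s 0 ≠ 0 := right_ne_zero_of_mul_eq_one h2
      have h3 : y s 2 = 1 / (m + 2 * s * y s 0) := by field_simp; linarith
      simp only [poly0, poly1, smul_eq_mul, Pi.add_apply, h3, c0]
      generalize hdd : m + 2 * s * y s 0 = d at *
      field_simp
      rw [← hdd]
      ring
    · subst hs0
      have hb : AnalyticAt ℝ (fun s => y s 1 + c0 m * y s 0) 0 :=
        (hy1 0 h0).add (analyticAt_const.mul (hy0 0 h0))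
      have h := (((hasDerivAt_id' (0 : ℝ)).mul hb.differentiableAt.hasDerivAt).const_add 1)
      refine HasDerivAt.congr_deriv h ?_
      simp only [a0, b0, c0]
      field_simp
      ring

end Vale.Agent.P252
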