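import Vale.Agent.P252.PDE
import Vale.Agent.P252.Local
import Vale.Agent.P252.Global

/-!
Existence of the global profile for `m ≥ 9`.
-/

namespace Vale.Agent.P252

open scoped ContDiff Topology
open Set Filter

theorem exists_profile (m : ℕ) (hm : 9 ≤ m) : ∃ A B Y ψ : ℝ → ℝ, Profile m A B Y ψ := by
  have hm' : (9 : ℝ) ≤ m := by exact_mod_cast hm
  obtain ⟨ε, hε, a, b, han, a0, da, dy⟩ := exists_local m (by linarith)
  have h0 : (0 : ℝ) ∈ Ioo (-ε) ε := ⟨by linarith, hε⟩
  have hca : ContinuousAt a 0 := (han 0 h0).1.continuousAt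
  have hcb : ContinuousAt b 0 := (han 0 h0).2.continuousAt
  have hev : ∀ᶠ s in 𝓝 (0 : ℝ), s < ε ∧ 0 < a s ∧ s * a s < 1 ∧ 1 / 2 < 1 + s * b s ∧
      1 + s * b s < 7 / 2 := by
    have h1 : ContinuousAt (fun s => s * a s) 0 := continuousAt_id.mul hca
    have h2 : ContinuousAt (fun s => 1 + s * b s) 0 :=
      continuousAt_const.add (continuousAt_id.mul hcb)
    refine (gt_mem_nhds hε).and ((continuousAt_const.eventually_lt hca (by simp [a0])).and
      ((h1.eventually_lt continuousAt_const (by simp)).and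
      ((continuousAt_const.eventually_lt h2 (by norm_num)).and
      (h2.eventually_lt continuousAt_const (by norm_num)))))
  obtain ⟨δ, hδ, hball⟩ := Metric.eventually_nhds_iff.mp hev
  set s₀ := δ / 2 with hs₀
  have hs₀p : 0 < s₀ := by positivity
  have hloc : ∀ s, 0 ≤ s → s ≤ s₀ → s < ε ∧ 0 < a s ∧ s * a s < 1 ∧ 1 / 2 < 1 + s * b s ∧
      1 + s * b s < 7 / 2 := fun s h1 h2 => hball (by
        rw [Real.dist_eq, sub_zero, abs_of_nonneg h1]; linarith)
  obtain ⟨l1, l2, l3, l4, l5⟩ := hloc s₀ hs₀p.le le_rfl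
  obtain ⟨X, Z, X0, Z0, hXZ⟩ := exists_trapped m hm' (s₀ * a s₀) (1 + s₀ * b s₀)
    (by positivity) l3.le l4.le l5.le
  let T : ℝ → ℝ := fun s => (Real.log s - Real.log s₀) / 2
  have hT : ∀ s, 0 < s → HasDerivAt T (1 / (2 * s)) s := fun s hs =>
    (((Real.hasDerivAt_log hs.ne').sub_const _).div_const 2).congr_deriv (by field_simp)
  have hT0 : ∀ s, s₀ ≤ s → 0 ≤ T s := fun s hs =>
    div_nonneg (sub_nonneg.mpr (Real.log_le_log hs₀p hs)) zero_le_two
  have hTs : T s₀ = 0 := by simp [T]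
  let Ag : ℝ → ℝ := fun s => X (T s) / s
  let Yg : ℝ → ℝ := fun s => Z (T s)
  let Bg : ℝ → ℝ := fun s => (Z (T s) - 1) / s
  have dAg : ∀ s, s₀ ≤ s → HasDerivAt Ag (Ag s * (Bg s - Ag s) / 2) s := by
    intro s hs
    have hs' : 0 < s := hs₀p.trans_le hs
    have h1 := ((hXZ _ (hT0 s hs)).2.2.1.comp s (hT s hs')).div (hasDerivAt_id' s) hs'.ne'
    refine HasDerivAt.congr_deriv h1 ?_
    simp only [field, Ag, Bg, Function.comp]
    field_simp
    ring
  have dYg : ∀ s, s₀ ≤ s → HasDerivAt Yg (Yg s * ((2 * m + 3) * Ag s + 2 * s * Ag s ^ 2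
      - m ^ 2 * Bg s + 6 * s * Ag s * Bg s) / (2 * (m + 2 * s * Ag s))) s := by
    intro s hs
    have hs' : 0 < s := hs₀p.trans_le hs
    have h1 := (hXZ _ (hT0 s hs)).2.2.2.comp s (hT s hs')
    refine HasDerivAt.congr_deriv h1 ?_
    have h2 := (hXZ _ (hT0 s hs)).1
    have h3 : 2 * s * (X (T s) / s) = 2 * X (T s) := by field_simp
    simp only [field, Ag, Bg, Yg, h3]
    have h4 : (m : ℝ) + 2 * X (T s) ≠ 0 := by positivity
    generalize (m : ℝ) + 2 * X (T s) = d at *
    field_simp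
    ring
  have gA : a s₀ = Ag s₀ := by simp only [Ag, hTs, X0]; field_simp
  have gB : b s₀ = Bg s₀ := by simp only [Bg, hTs, Z0]; field_simp; ring
  have gY : 1 + s₀ * b s₀ = Yg s₀ := by simp only [Yg, hTs, Z0]
  let A : ℝ → ℝ := fun s => if s ≤ s₀ then a s else Ag s
  let B : ℝ → ℝ := fun s => if s ≤ s₀ then b s else Bg s
  let Y : ℝ → ℝ := fun s => if s ≤ s₀ then 1 + s * b s else Yg s
  have evl : ∀ (f g : ℝ → ℝ) (s : ℝ), s < s₀ → (fun s => if s ≤ s₀ then f s else g s) =ᶠ[𝓝 s] f := by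
    intro f g s hs
    filter_upwards [gt_mem_nhds hs] with r hr using if_pos hr.le
  have evr : ∀ (f g : ℝ → ℝ) (s : ℝ), s₀ < s → (fun s => if s ≤ s₀ then f s else g s) =ᶠ[𝓝 s] g := by
    intro f g s hs
    filter_upwards [lt_mem_nhds hs] with r hr using if_neg (not_le.mpr hr)
  have hA : ∀ s, 0 ≤ s → 0 < A s := by
    intro s hs
    by_cases h : s ≤ s₀
    · simp only [A, if_pos h]; exact (hloc s hs h).2.1
    · simp only [A, if_neg h, Ag]
      have h' := not_le.mp h
      exact div_pos (hXZ _ (hT0 s h'.le)).1 (hs₀p.trans h')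
  have hY : ∀ s, 0 ≤ s → 0 < Y s := by
    intro s hs
    by_cases h : s ≤ s₀
    · simp only [Y, if_pos h]; linarith [(hloc s hs h).2.2.2.1]
    · simp only [Y, if_neg h, Yg]
      exact (hXZ _ (hT0 s (not_le.mp h).le)).2.1
  have hYB : ∀ s, 0 ≤ s → Y s = 1 + s * B s := by
    intro s hs
    by_cases h : s ≤ s₀
    · simp only [Y, B, if_pos h]
    · have h' := hs₀p.trans (not_le.mp h)
      simp only [Y, B, if_neg h, Yg, Bg]
      field_simp
      ring
  have dA : ∀ s, -ε < s → HasDerivAt A (A s * (B s - A s) / 2) s := by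
    intro s hs
    rcases lt_trichotomy s s₀ with h | h | h
    · simp only [A, B, if_pos h.le]
      exact (da s ⟨hs, h.trans l1⟩).congr_of_eventuallyEq (evl _ _ s h)
    · subst h
      simp only [A, B, if_pos le_rfl]
      exact hasDerivAt_glue (da _ ⟨hs, l1⟩) (by rw [gA, gB]; exact dAg _ le_rfl) gA
    · simp only [A, B, if_neg (not_le.mpr h)]
      exact (dAg s h.le).congr_of_eventuallyEq (evr _ _ s h)
  have dY : ∀ s, 0 ≤ s → HasDerivAt Y (Y s * ((2 * m + 3) * A s + 2 * s * A s ^ 2 - m ^ 2 * B s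
      + 6 * s * A s * B s) / (2 * (m + 2 * s * A s))) s := by
    intro s hs
    rcases lt_trichotomy s s₀ with h | h | h
    · simp only [A, B, Y, if_pos h.le]
      exact (dy s ⟨hs, h.trans l1⟩).congr_of_eventuallyEq (evl _ _ s h)
    · subst h
      simp only [A, B, Y, if_pos le_rfl]
      exact hasDerivAt_glue (dy _ ⟨hs, l1⟩) (by rw [gY, gA, gB]; exact dYg _ le_rfl) gY
    · simp only [A, B, Y, if_neg (not_le.mpr h)]
      exact (dYg s h.le).congr_of_eventuallyEq (evr _ _ s h)
  have boot : ∀ k : ℕ, ContDiffOn ℝ k A (Ioi 0) ∧ ContDiffOn ℝ k Y (Ioi 0) := by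
    intro k
    induction k with
    | zero =>
      simp only [Nat.cast_zero, contDiffOn_zero]
      exact ⟨fun s hs => (dA s (by linarith [mem_Ioi.mp hs])).continuousAt.continuousWithinAt,
        fun s hs => (dY s (le_of_lt hs)).continuousAt.continuousWithinAt⟩
    | succ k ih =>
      obtain ⟨iA, iY⟩ := ih
      have iB : ContDiffOn ℝ k B (Ioi 0) := by
        refine ((iY.sub (contDiffOn_const (c := (1 : ℝ)))).div contDiffOn_id
          (fun s hs => ne_of_gt hs)).congr (fun s hs => ?_)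
        have hs' : 0 < s := hs
        change B s = (Y s - 1) / s
        rw [hYB s hs'.le]
        field_simp
        ring
      have iI : ContDiffOn ℝ k (fun s : ℝ => s) (Ioi 0) := contDiffOn_id
      push_cast
      rw [contDiffOn_succ_iff_deriv_of_isOpen isOpen_Ioi,
        contDiffOn_succ_iff_deriv_of_isOpen isOpen_Ioi]
      refine ⟨⟨fun s hs => (dA s (by linarith [mem_Ioi.mp hs])).differentiableAt.differentiableWithinAt,
        by simp, ?_⟩, fun s hs => (dY s (le_of_lt hs)).differentiableAt.differentiableWithinAt,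
        by simp, ?_⟩
      · exact ((iA.mul (iB.sub iA)).div_const 2).congr
          (fun s hs => (dA s (by linarith [mem_Ioi.mp hs])).deriv)
      · refine ContDiffOn.congr ?_ (fun s hs => (dY s (le_of_lt hs)).deriv)
        refine ContDiffOn.div (by fun_prop) (by fun_prop) (fun s hs => ?_)
        have hs' : 0 < s := hs
        have := hA s hs'.le
        positivity
  have smA : ContDiffOn ℝ ∞ A (Ioi (-ε)) := by
    intro s hs
    rcases lt_or_ge s s₀ with h | h
    · exact (((han s ⟨hs, h.trans l1⟩).1.contDiffAt).congr_of_eventuallyEq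
        (evl _ _ s h)).contDiffWithinAt
    · exact ((contDiffOn_infty.mpr fun k => (boot k).1).contDiffAt
        (Ioi_mem_nhds (hs₀p.trans_le h))).contDiffWithinAt
  have dL : ∀ s ∈ Ioi (-ε), HasDerivAt (fun s => ∫ v in (0 : ℝ)..s, A v) (A s) s := by
    intro s hs
    refine intervalIntegral.integral_hasDerivAt_right ?_ ?_ ?_
    · exact (smA.continuousOn.mono (ordConnected_Ioi.uIcc_subset h0.1 hs)).intervalIntegrable
    · exact smA.continuousOn.stronglyMeasurableAtFilter isOpen_Ioi s hs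
    · exact smA.continuousOn.continuousAt (isOpen_Ioi.mem_nhds hs)
  have smL : ContDiffOn ℝ ∞ (fun s => ∫ v in (0 : ℝ)..s, A v) (Ioi (-ε)) := by
    rw [contDiffOn_infty_iff_deriv_of_isOpen isOpen_Ioi]
    exact ⟨fun s hs => (dL s hs).differentiableAt.differentiableWithinAt,
      smA.congr fun s hs => (dL s hs).deriv⟩
  refine ⟨A, B, Y, fun s => Real.exp (∫ v in (0 : ℝ)..s, A v), hA, hY, fun s _ => Real.exp_pos _,
    hYB, fun s hs => dA s (by linarith), dY, fun s hs => ?_, fun s hs => ?_, by simp⟩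
  · exact (dL s (show -ε < s by linarith)).exp.congr_deriv (mul_comm _ _)
  · exact (smL.contDiffAt (Ioi_mem_nhds (by linarith))).exp

end Vale.Agent.P252
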