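import Vale.Agent.P252.Calc

/-!
From the reduced ordinary differential system to the affine maximal equation.
-/

namespace Vale.Agent.P252

open Matrix
open scoped ContDiff

/-- The profile data: a solution of the reduced system on `[0, ∞)`. -/
structure Profile (m : ℕ) (A B Y ψ : ℝ → ℝ) : Prop where
  hA : ∀ s, 0 ≤ s → 0 < A s
  hY : ∀ s, 0 ≤ s → 0 < Y s
  hψ : ∀ s, 0 ≤ s → 0 < ψ s
  hYB : ∀ s, 0 ≤ s → Y s = 1 + s * B s
  dA : ∀ s, 0 ≤ s → HasDerivAt A (A s * (B s - A s) / 2) s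
  dY : ∀ s, 0 ≤ s → HasDerivAt Y (Y s * ((2 * m + 3) * A s + 2 * s * A s ^ 2 - m ^ 2 * B s
    + 6 * s * A s * B s) / (2 * (m + 2 * s * A s))) s
  dψ : ∀ s, 0 ≤ s → HasDerivAt ψ (A s * ψ s) s
  smooth : ∀ s, 0 ≤ s → ContDiffAt ℝ ∞ ψ s
  ψ0 : ψ 0 = 1

variable {m : ℕ} {A B Y ψ : ℝ → ℝ}

/-- the square of the solution -/
noncomputable def Rf (ψ : ℝ → ℝ) (y : EuclideanSpace ℝ (Fin (m + 1))) : ℝ :=
  ψ (sq' y) + y 0 * y 0

/-- the solution -/
noncomputable def uf (ψ : ℝ → ℝ) (y : EuclideanSpace ℝ (Fin (m + 1))) : ℝ := √(Rf ψ y)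

namespace Profile

variable (h : Profile m A B Y ψ)
include h

lemma R_pos (y : EuclideanSpace ℝ (Fin (m + 1))) : 0 < Rf ψ y :=
  add_pos_of_pos_of_nonneg (h.hψ _ (sq'_nonneg y)) (mul_self_nonneg _)

lemma u_pos (y : EuclideanSpace ℝ (Fin (m + 1))) : 0 < uf ψ y := Real.sqrt_pos.mpr (h.R_pos y)

lemma u_sq (y : EuclideanSpace ℝ (Fin (m + 1))) : uf ψ y ^ 2 = ψ (sq' y) + y 0 * y 0 :=
  Real.sq_sqrt (h.R_pos y).le

lemma contDiff_u : ContDiff ℝ ∞ (uf (m := m) ψ) := by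
  rw [contDiff_iff_contDiffAt]
  intro y
  have h1 : ContDiffAt ℝ ∞ (fun z : EuclideanSpace ℝ (Fin (m + 1)) => ψ (sq' z)) y :=
    (h.smooth _ (sq'_nonneg y)).comp y (contDiff_sq'.of_le le_top).contDiffAt
  have h2 : ContDiffAt ℝ ∞ (fun z : EuclideanSpace ℝ (Fin (m + 1)) => z 0 * z 0) y := by
    fun_prop
  exact (h1.add h2).sqrt (h.R_pos y).ne'

lemma Dv_ψ (y : EuclideanSpace ℝ (Fin (m + 1))) :
    Dv (fun z => ψ (sq' z)) (2 * A (sq' y) * ψ (sq' y)) 0 y :=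
  (Dv.comp (h.dψ _ (sq'_nonneg y)) (Dv_s y)).congr (by ring) (by ring)

lemma Dv_A (y : EuclideanSpace ℝ (Fin (m + 1))) :
    Dv (fun z => A (sq' z)) (A (sq' y) * (B (sq' y) - A (sq' y))) 0 y :=
  (Dv.comp (h.dA _ (sq'_nonneg y)) (Dv_s y)).congr (by ring) (by ring)

lemma Dv_Y (hm : 1 ≤ m) (y : EuclideanSpace ℝ (Fin (m + 1))) :
    Dv (fun z => Y (sq' z)) (Y (sq' y) * ((2 * m + 3) * A (sq' y) + 2 * sq' y * A (sq' y) ^ 2
      - m ^ 2 * B (sq' y) + 6 * sq' y * A (sq' y) * B (sq' y))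
        / (m + 2 * sq' y * A (sq' y))) 0 y :=
  (Dv.comp (h.dY _ (sq'_nonneg y)) (Dv_s y)).congr (by field_simp) (by ring)

lemma Dv_R (y : EuclideanSpace ℝ (Fin (m + 1))) :
    Dv (Rf ψ) (2 * A (sq' y) * ψ (sq' y)) (2 * y 0) y :=
  ((h.Dv_ψ y).add ((Dv_t y).mul (Dv_t y))).congr (by ring) (by ring)

lemma Dv_u (y : EuclideanSpace ℝ (Fin (m + 1))) :
    Dv (uf ψ) (A (sq' y) * ψ (sq' y) / uf ψ y) (y 0 / uf ψ y) y := by
  have := h.u_pos y
  refine ((h.Dv_R y).sqrt (h.R_pos y).ne').congr ?_ ?_ <;>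
    (change _ / (2 * uf ψ y) = _; field_simp)

lemma hess_u (y : EuclideanSpace ℝ (Fin (m + 1))) :
    hess (uf ψ) y = SM (xh y) (e0 m) (A (sq' y) * ψ (sq' y) / uf ψ y)
      ((A (sq' y) * (A (sq' y) + B (sq' y)) * ψ (sq' y)
        - A (sq' y) ^ 2 * ψ (sq' y) ^ 2 / uf ψ y ^ 2) / uf ψ y)
      (-(A (sq' y) * ψ (sq' y) * y 0) / uf ψ y ^ 3) (-(A (sq' y) * ψ (sq' y) * y 0) / uf ψ y ^ 3)
      (ψ (sq' y) / uf ψ y ^ 3 - A (sq' y) * ψ (sq' y) / uf ψ y) := by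
  have hu := h.u_pos y
  have hu2 := h.u_sq y
  refine hess_eq h.Dv_u ?_ ?_
  · exact (((h.Dv_A y).mul (h.Dv_ψ y)).div (h.Dv_u y) hu.ne').congr (by field_simp; ring)
      (by field_simp; ring)
  · refine ((Dv_t y).div (h.Dv_u y) hu.ne').congr (by field_simp; ring) ?_
    field_simp
    linarith

lemma Delta_eq (y : EuclideanSpace ℝ (Fin (m + 1))) :
    A (sq' y) * ψ (sq' y) ^ 2 * Y (sq' y) / uf ψ y ^ 4 =
    (A (sq' y) * ψ (sq' y) / uf ψ y + ((A (sq' y) * (A (sq' y) + B (sq' y)) * ψ (sq' y)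
        - A (sq' y) ^ 2 * ψ (sq' y) ^ 2 / uf ψ y ^ 2) / uf ψ y) * sq' y) *
      (A (sq' y) * ψ (sq' y) / uf ψ y +
        (ψ (sq' y) / uf ψ y ^ 3 - A (sq' y) * ψ (sq' y) / uf ψ y)) -
      (-(A (sq' y) * ψ (sq' y) * y 0) / uf ψ y ^ 3) ^ 2 * sq' y := by
  have hu := h.u_pos y
  have hu2 := h.u_sq y
  rw [h.hYB _ (sq'_nonneg y)]
  have : y 0 ^ 2 = uf ψ y ^ 2 - ψ (sq' y) := by linarith
  simp only [div_pow, neg_sq, mul_pow, this]
  field_simp
  ring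

lemma posDef_u (y : EuclideanSpace ℝ (Fin (m + 1))) : (hess (uf ψ) y).PosDef := by
  have hu := h.u_pos y
  have hA := h.hA _ (sq'_nonneg y)
  have hY := h.hY _ (sq'_nonneg y)
  have hψ := h.hψ _ (sq'_nonneg y)
  rw [h.hess_u y]
  refine SM_posDef _ _ (sq' y) rfl (xh_e0 y) e0_e0 _ _ _ _ (by positivity) ?_ ?_
  · rw [add_sub_cancel]; positivity
  · rw [← h.Delta_eq y]; positivity

lemma det_u (y : EuclideanSpace ℝ (Fin (m + 1))) :
    (hess (uf ψ) y).det = A (sq' y) ^ m * ψ (sq' y) ^ (m + 1) * Y (sq' y) / uf ψ y ^ (m + 3) := by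
  have hu := h.u_pos y
  have hA := h.hA _ (sq'_nonneg y)
  have hψ := h.hψ _ (sq'_nonneg y)
  rw [h.hess_u y, SM_det _ _ (sq' y) rfl (xh_e0 y) e0_e0 _ _ _ _ (by positivity), ← h.Delta_eq y]
  simp only [div_pow, mul_pow]
  field_simp
  ring

lemma w_eq : wfun (uf (m := m) ψ) = fun y => Real.exp (-(((m : ℝ) + 2) / (m + 3)) *
    (m * Real.log (A (sq' y)) + (m + 1) * Real.log (ψ (sq' y)) + Real.log (Y (sq' y))
      - (m + 3) * Real.log (uf ψ y))) := by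
  funext y
  have hu := h.u_pos y
  have hA := h.hA _ (sq'_nonneg y)
  have hY := h.hY _ (sq'_nonneg y)
  have hψ := h.hψ _ (sq'_nonneg y)
  rw [wfun, h.det_u y, Real.rpow_def_of_pos (by positivity), Real.log_div (by positivity)
    (by positivity), Real.log_mul (by positivity) (by positivity),
    Real.log_mul (by positivity) (by positivity), Real.log_pow, Real.log_pow, Real.log_pow]
  congr 1
  push_cast
  ring

lemma den_pos (hm : 1 ≤ m) (y : EuclideanSpace ℝ (Fin (m + 1))) :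
    0 < (m : ℝ) + 2 * sq' y * A (sq' y) := by
  have hA := h.hA _ (sq'_nonneg y)
  have := sq'_nonneg y
  have hm' : (0 : ℝ) < m := by exact_mod_cast hm
  positivity

lemma Dv_w (hm : 1 ≤ m) (y : EuclideanSpace ℝ (Fin (m + 1))) :
    Dv (wfun (uf ψ)) (wfun (uf ψ) y * ((m + 2) * (A (sq' y) * ψ (sq' y) / Rf ψ y -
        A (sq' y) * (m - 1 + 2 * (sq' y * A (sq' y)) + 2 * Y (sq' y))
          / (m + 2 * (sq' y * A (sq' y))))))
      (wfun (uf ψ) y * ((m + 2) * (y 0 / Rf ψ y))) y := by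
  have hu := h.u_pos y
  have hA := h.hA _ (sq'_nonneg y)
  have hY := h.hY _ (sq'_nonneg y)
  have hψ := h.hψ _ (sq'_nonneg y)
  have hd := h.den_pos hm y
  have hR : Rf ψ y = uf ψ y ^ 2 := (h.u_sq y).symm
  have hYB := h.hYB _ (sq'_nonneg y)
  have key := ((((((h.Dv_A y).log hA.ne').const_mul m).add
    (((h.Dv_ψ y).log hψ.ne').const_mul (m + 1))).add ((h.Dv_Y hm y).log hY.ne')).sub
    (((h.Dv_u y).log hu.ne').const_mul (m + 3))).const_mul (-(((m : ℝ) + 2) / (m + 3))) |>.exp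
  rw [h.w_eq]
  refine key.congr ?_ ?_
  · congr 1
    rw [hR, ← mul_assoc 2 (sq' y)]
    have h3 : (m : ℝ) + 3 ≠ 0 := by positivity
    generalize hdd : (m : ℝ) + 2 * sq' y * A (sq' y) = d at *
    field_simp
    rw [hYB, ← hdd]
    ring
  · congr 1
    rw [hR]
    field_simp
    ring

theorem AM (hm : 1 ≤ m) (y : EuclideanSpace ℝ (Fin (m + 1))) :
    ∑ i, ∑ j, cofU (uf ψ) y i j * hess (wfun (uf ψ)) y i j = 0 := by
  have hu := h.u_pos y
  have hA := h.hA _ (sq'_nonneg y)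
  have hY := h.hY _ (sq'_nonneg y)
  have hψ := h.hψ _ (sq'_nonneg y)
  have hd := h.den_pos hm y
  have hd' : (m : ℝ) + 2 * (sq' y * A (sq' y)) ≠ 0 := by rw [← mul_assoc]; exact hd.ne'
  have hR : Rf ψ y = uf ψ y ^ 2 := (h.u_sq y).symm
  have hRp := h.R_pos y
  have hYB := h.hYB _ (sq'_nonneg y)
  have hX := (Dv_s y).mul (h.Dv_A y)
  have h1 := (h.Dv_w hm y).mul (((((h.Dv_A y).mul (h.Dv_ψ y)).div (h.Dv_R y) hRp.ne').sub
    (((h.Dv_A y).mul (((Dv.const ((m : ℝ) - 1)).add (hX.const_mul 2)).add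
      ((h.Dv_Y hm y).const_mul 2))).div ((Dv.const (m : ℝ)).add (hX.const_mul 2)) hd')).const_mul
      ((m : ℝ) + 2))
  have h2 := (h.Dv_w hm y).mul (((Dv_t y).div (h.Dv_R y) hRp.ne').const_mul ((m : ℝ) + 2))
  have h3 := hess_eq (h.Dv_w hm) h1 (h2.congr (by field_simp; ring) rfl)
  rw [h3, cofU, h.hess_u y, SM_contract _ _ (sq' y) rfl (xh_e0 y) e0_e0 _ _ _ _ _ _ _ _ _ _
    (by positivity) (by positivity) (h.Delta_eq y)]
  refine mul_eq_zero_of_right _ ?_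
  have ht : ψ (sq' y) = uf ψ y ^ 2 - y 0 ^ 2 := by have := h.u_sq y; linarith
  rw [hR]
  generalize wfun (uf ψ) y = w at *
  generalize uf ψ y = u at *
  generalize y 0 = t at *
  generalize ψ (sq' y) = p at *
  generalize Y (sq' y) = Y at *
  generalize A (sq' y) = a at *
  generalize B (sq' y) = b at *
  generalize sq' y = s at *
  clear h1 h2 h3 hX hd'
  rw [← mul_assoc 2 s a]
  push_cast
  generalize hdd : (m : ℝ) + 2 * s * a = d at *
  field_simp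
  subst ht hYB hdd
  ring

lemma not_quadratic : ¬ ∃ (M : Matrix (Fin (m + 1)) (Fin (m + 1)) ℝ) (b : Fin (m + 1) → ℝ) (c : ℝ),
    ∀ x : EuclideanSpace ℝ (Fin (m + 1)),
      uf ψ x = (1 / 2) * (x.ofLp ⬝ᵥ (M *ᵥ x.ofLp)) + b ⬝ᵥ x.ofLp + c := by
  rintro ⟨M, b, c, hq⟩
  have key : ∀ t r : ℝ, 0 ≤ r → r ^ 2 = 1 + t ^ 2 →
      r = (1 / 2) * (M 0 0 * t ^ 2) + b 0 * t + c := by
    intro t r hr hrt
    have h1 := hq (EuclideanSpace.single 0 t)
    have h2 : sq' (EuclideanSpace.single (0 : Fin (m + 1)) t) = 0 := by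
      have : xh (EuclideanSpace.single (0 : Fin (m + 1)) t) = 0 := by
        funext i
        by_cases hi : i = 0
        · subst hi; simp [xh_zero]
        · simp [xh, e0, hi]
      simp [sq', this]
    have h3 : uf ψ (EuclideanSpace.single (0 : Fin (m + 1)) t) = r := by
      rw [uf, Rf, h2, h.ψ0, Real.sqrt_eq_iff_mul_self_eq (add_nonneg zero_le_one (mul_self_nonneg _)) hr]
      simp; linarith
    rw [← h3, h1]
    simp
    ring
  have k0 := key 0 1 (by norm_num) (by norm_num)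
  have k1 := key (3 / 4) (5 / 4) (by norm_num) (by norm_num)
  have k2 := key (-3 / 4) (5 / 4) (by norm_num) (by norm_num)
  have k3 := key (4 / 3) (5 / 3) (by norm_num) (by norm_num)
  linarith

end Profile

end Vale.Agent.P252
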