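import Mathlib

/-!
Analytic solutions of scaling-invariant integral equations, by the implicit function theorem in
`C([0,1], ℝ)`.
-/

namespace Vale.Agent.P252

open scoped ContDiff Topology unitInterval
open Set Filter

/-- precomposition with `τ ↦ c τ` -/
def scale (c : I) (f : C(I, ℝ)) : C(I, ℝ) :=
  f.comp ⟨fun τ => c * τ, Continuous.subtype_mk (by fun_prop) _⟩

lemma scale_apply (c : I) (f : C(I, ℝ)) (τ : I) : scale c f τ = f (c * τ) := rfl

/-- the inclusion of the unit interval -/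
def idI : C(I, ℝ) := ⟨fun τ => (τ : ℝ), continuous_subtype_val⟩

theorem exists_scaling_solution {ι : Type} [Fintype ι] (y₀ : ι → ℝ)
    (K : ι → (C(I, ℝ) →L[ℝ] C(I, ℝ)))
    (hK : ∀ i c f, K i (scale c f) = scale c (K i f))
    (F : ℝ × (ι → C(I, ℝ)) → ι → C(I, ℝ)) (hF : ContDiff ℝ ω F)
    (P : ℝ → (ι → ℝ) → ι → ℝ)
    (hP : ∀ l Y i τ, F (l, Y) i τ = P (l * τ) (fun j => Y j τ) i) :
    ∃ ε > 0, ∃ y : ℝ → ι → ℝ, (∀ s ∈ Ioo (-ε) ε, AnalyticAt ℝ y s) ∧
      ∀ s ∈ Ioo (-ε) ε, ∀ i, ∃ f : C(I, ℝ), (∀ τ : I, f τ = P (s * τ) (y (s * τ)) i) ∧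
        y s i = y₀ i + s * K i f 1 := by
  let Y₀ : ι → C(I, ℝ) := fun i => ContinuousMap.const I (y₀ i)
  let S : ℝ × (ι → C(I, ℝ)) → ι → C(I, ℝ) := fun v i => idI * K i (F v i)
  have hS : ContDiff ℝ ω S := by
    rw [contDiff_pi]
    intro i
    exact contDiff_const.mul ((K i).contDiff.comp (contDiff_pi.mp hF i))
  let G : ℝ × (ι → C(I, ℝ)) → ι → C(I, ℝ) := fun v => v.2 - v.1 • S v
  have hG : ContDiff ℝ ω G := contDiff_snd.sub (contDiff_fst.smul hS)
  have hG0 : G (0, Y₀) = Y₀ := by simp [G]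
  have hinv : (fderiv ℝ G (0, Y₀) ∘L .inr ℝ ℝ (ι → C(I, ℝ))).IsInvertible := by
    have h1 : HasFDerivAt S (fderiv ℝ S (0, Y₀)) (0, Y₀) :=
      (hS.differentiable (by simp) _).hasFDerivAt
    have h2 := (hasFDerivAt_snd (𝕜 := ℝ) (p := ((0 : ℝ), Y₀))).sub
      ((hasFDerivAt_fst (𝕜 := ℝ) (p := ((0 : ℝ), Y₀))).smul h1)
    have h3 : fderiv ℝ G (0, Y₀) = _ := h2.fderiv
    refine ⟨ContinuousLinearEquiv.refl ℝ _, ?_⟩
    rw [h3]
    ext1 z
    simp
  have cdf : ContDiffAt ℝ ω G (0, Y₀) := hG.contDiffAt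
  set ψ := cdf.implicitFunction (by simp) hinv with hψ
  have hψ0 : ψ 0 = Y₀ := cdf.implicitFunction_apply_self (by simp) hinv
  have hψa : AnalyticAt ℝ ψ 0 := (cdf.contDiffAt_implicitFunction (by simp) hinv).analyticAt
  obtain ⟨δ, hδ, hu⟩ := Metric.eventually_nhds_iff.mp
    (cdf.eventually_apply_eq_iff_implicitFunction (by simp) hinv)
  have hc : ∀ᶠ s in 𝓝 (0 : ℝ), dist (ψ s) Y₀ < δ := by
    have := hψa.continuousAt
    rw [ContinuousAt, hψ0] at this
    exact this.eventually (Metric.ball_mem_nhds Y₀ hδ)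
  have hlt : ∀ᶠ s in 𝓝 (0 : ℝ), |s| < δ := by
    simpa using Metric.eventually_nhds_iff.mpr ⟨δ, hδ, fun s (hs : dist s (0 : ℝ) < δ) => hs⟩
  obtain ⟨ε, hε, hall⟩ := Metric.eventually_nhds_iff.mp
    (hψa.eventually_analyticAt.and (hc.and hlt))
  have hall' : ∀ s ∈ Ioo (-ε) ε, AnalyticAt ℝ ψ s ∧ dist (ψ s) Y₀ < δ ∧ |s| < δ := by
    intro s hs
    apply hall
    rw [Real.dist_eq, sub_zero, abs_lt]
    exact hs
  have hfix : ∀ s ∈ Ioo (-ε) ε, ∀ i τ, ψ s i τ = y₀ i + s * (τ * K i (F (s, ψ s) i) τ) := by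
    intro s hs i τ
    obtain ⟨-, h1, h2⟩ := hall' s hs
    have h3 : G (s, ψ s) = G (0, Y₀) := by
      refine (hu (y := (s, ψ s)) ?_).mpr rfl
      rw [Prod.dist_eq, max_lt_iff]
      exact ⟨by simpa using h2, h1⟩
    rw [hG0] at h3
    have h4 := congrArg (fun Z : ι → C(I, ℝ) => Z i τ) h3
    simp [G, S, Y₀, idI] at h4
    linarith
  have hscale : ∀ s ∈ Ioo (-ε) ε, ∀ c : I, ψ (s * c) = fun i => scale c (ψ s i) := by
    intro s hs c
    obtain ⟨-, h1, h2⟩ := hall' s hs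
    refine (hu (y := (s * c, fun i => scale c (ψ s i))) ?_).mp ?_
    · rw [Prod.dist_eq, max_lt_iff]
      constructor
      · simp only [dist_zero_right, Real.norm_eq_abs, abs_mul]
        refine lt_of_le_of_lt ?_ h2
        refine mul_le_of_le_one_right (abs_nonneg _) ?_
        rw [abs_of_nonneg c.2.1]; exact c.2.2
      · rw [dist_pi_lt_iff hδ] at h1 ⊢
        intro i
        rw [ContinuousMap.dist_lt_iff hδ]
        intro τ
        exact (ContinuousMap.dist_lt_iff hδ).mp (h1 i) (c * τ)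
    · rw [hG0]
      funext i
      ext τ
      have h5 : F (s * c, fun i => scale c (ψ s i)) i = scale c (F (s, ψ s) i) := by
        ext v
        rw [scale_apply, hP, hP]
        simp [scale_apply, mul_assoc]
      have h6 := hfix s hs i (c * τ)
      simp only [G, S, Y₀, idI, Pi.sub_apply, Pi.smul_apply, h5, hK, ContinuousMap.sub_apply,
        ContinuousMap.smul_apply, ContinuousMap.mul_apply, scale_apply, h6, smul_eq_mul,
        ContinuousMap.coe_mk, ContinuousMap.const_apply, Set.Icc.coe_mul]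
      ring
  refine ⟨ε, hε, fun s i => ψ s i 1, fun s hs => ?_, fun s hs i => ⟨F (s, ψ s) i, fun τ => ?_, ?_⟩⟩
  · rw [analyticAt_pi_iff]
    intro i
    exact ((ContinuousMap.evalCLM ℝ (1 : I)).analyticAt _).comp
      (analyticAt_pi_iff.mp (hall' s hs).1 i)
  · rw [hP]
    congr 1
    funext j
    simp [hscale s hs τ, scale_apply]
  · simpa using hfix s hs i 1

/-- the weighted averaging operator -/
noncomputable def avg (k : C(ℝ, ℝ)) (f : C(I, ℝ)) : C(I, ℝ) :=
  ⟨fun τ => ∫ v in (0 : ℝ)..1, k v * f (projIcc 0 1 zero_le_one (v * τ)), by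
    apply intervalIntegral.continuous_parametric_intervalIntegral_of_continuous'
    have := continuous_projIcc (a := (0 : ℝ)) (b := 1) (h := zero_le_one)
    fun_prop⟩

lemma avg_apply (k : C(ℝ, ℝ)) (f : C(I, ℝ)) (τ : I) :
    avg k f τ = ∫ v in (0 : ℝ)..1, k v * f (projIcc 0 1 zero_le_one (v * τ)) := rfl

lemma avg_integrable (k : C(ℝ, ℝ)) (f : C(I, ℝ)) (τ : I) :
    IntervalIntegrable (fun v => k v * f (projIcc 0 1 zero_le_one (v * τ)))
      MeasureTheory.volume 0 1 := by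
  apply Continuous.intervalIntegrable
  have := continuous_projIcc (a := (0 : ℝ)) (b := 1) (h := zero_le_one)
  fun_prop

/-- the weighted averaging operator as a bounded operator -/
noncomputable def avgL (k : C(ℝ, ℝ)) (hk : ∀ v ∈ Icc (0 : ℝ) 1, |k v| ≤ 1) :
    C(I, ℝ) →L[ℝ] C(I, ℝ) :=
  LinearMap.mkContinuous
    { toFun := avg k
      map_add' := fun f g => by
        ext τ
        simp only [avg_apply, ContinuousMap.add_apply, mul_add]
        exact intervalIntegral.integral_add (avg_integrable k f τ) (avg_integrable k g τ)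
      map_smul' := fun c f => by
        ext τ
        simp only [avg_apply, ContinuousMap.smul_apply, smul_eq_mul, RingHom.id_apply,
          ← intervalIntegral.integral_const_mul]
        congr 1
        funext v
        ring } 1 (fun f => by
      rw [one_mul, ContinuousMap.norm_le _ (norm_nonneg f)]
      intro τ
      have := intervalIntegral.norm_integral_le_of_norm_le_const (a := (0 : ℝ)) (b := 1)
        (C := ‖f‖) (f := fun v => k v * f (projIcc 0 1 zero_le_one (v * τ))) (fun v hv => by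
          rw [uIoc_of_le zero_le_one] at hv
          rw [norm_mul]
          have h1 := hk v ⟨hv.1.le, hv.2⟩
          have h2 := f.norm_coe_le_norm (projIcc 0 1 zero_le_one (v * τ))
          calc _ ≤ 1 * ‖f‖ := mul_le_mul h1 h2 (norm_nonneg _) zero_le_one
            _ = _ := one_mul _)
      simpa [avg_apply] using this)

lemma avgL_apply (k : C(ℝ, ℝ)) (hk : ∀ v ∈ Icc (0 : ℝ) 1, |k v| ≤ 1) (f : C(I, ℝ)) (τ : I) :
    avgL k hk f τ = ∫ v in (0 : ℝ)..1, k v * f (projIcc 0 1 zero_le_one (v * τ)) := rfl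

lemma avgL_scale (k : C(ℝ, ℝ)) (hk : ∀ v ∈ Icc (0 : ℝ) 1, |k v| ≤ 1) (c : I) (f : C(I, ℝ)) :
    avgL k hk (scale c f) = scale c (avgL k hk f) := by
  ext τ
  rw [scale_apply, avgL_apply, avgL_apply]
  apply intervalIntegral.integral_congr
  intro v hv
  rw [uIcc_of_le zero_le_one] at hv
  have h1 : v * τ ∈ Icc (0 : ℝ) 1 := unitInterval.mul_mem hv τ.2
  have h2 : v * (c * τ : I) ∈ Icc (0 : ℝ) 1 := unitInterval.mul_mem hv (c * τ).2
  simp only [scale_apply, projIcc_of_mem _ h1, projIcc_of_mem _ h2]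
  congr 2
  ext
  simp
  ring

lemma avgL_one (k : C(ℝ, ℝ)) (hk : ∀ v ∈ Icc (0 : ℝ) 1, |k v| ≤ 1) (f : C(I, ℝ)) (φ : ℝ → ℝ)
    (s : ℝ) (hf : ∀ τ : I, f τ = φ (s * τ)) :
    avgL k hk f 1 = ∫ v in (0 : ℝ)..1, k v * φ (s * v) := by
  rw [avgL_apply]
  apply intervalIntegral.integral_congr
  intro v hv
  rw [uIcc_of_le zero_le_one] at hv
  simp [projIcc_of_mem _ hv, hf]

end Vale.Agent.P252
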